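import Vale.Agent.P317.Main

/-!
P317: there is an FPRAS for the number of common bases of two matroids of equal rank given by
independence oracles.
-/

namespace Vale.Agent.Results.P317.A_fpras

open Vale.Agent.P317

theorem result : ∃ (P : Prog) (C d : ℕ), ∀ (n : ℕ) (M₁ M₂ : Matroid (Fin n)),
    M₁.E = Set.univ → M₂.E = Set.univ → M₁.eRank = M₂.eRank →
    ∀ ε δ : ℚ, 0 < ε → ε < 1 → 0 < δ → δ < 1 →
      (∀ s ∈ (P.run (oracle M₁ M₂) (input n ε δ, 0)).support,
        (s.2 : ℝ) ≤ C * ((n : ℝ) + 1 / (ε : ℝ) + Real.log (1 / (δ : ℝ)) + 1) ^ d) ∧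
      1 - (δ : ℝ) ≤ ((P.run (oracle M₁ M₂) (input n ε δ, 0)).toOuterMeasure
        {s | Accurate (commonBases M₁ M₂) ε s.1}).toReal := main_theorem

end Vale.Agent.Results.P317.A_fpras
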